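import Vale.Agent.P062.Strip5

namespace Vale.Agent.Results.P062.StripFive

open Vale.Agent.P062

/-- Breaker wins the Snaky achievement game (Maker moves first, no handicap) on the infinite strip
`ℤ × {0, 1, 2, 3, 4}`. -/
theorem result : BreakerWins {c : Cell | 0 ≤ c.2 ∧ c.2 ≤ 4} :=
  breakerWins_strip5

end Vale.Agent.Results.P062.StripFive
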